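import Vale.Agent.P207.N4.Dim
import Vale.Agent.P207.N4.H575.T3.Top

/-!
Line N3 of P207: contraction of a leaf in the past (T4) and packing of compact sets of a leaf by
balls (T5).
-/

namespace Vale.Agent.P207.N4

open Vale.Agent.P207.N3

variable [Dim]

open Set Filter Topology Metric MeasureTheory

set_option linter.unusedSectionVars false

variable {Γ X B : Type} [Group Γ] [MetricSpace X] [ProperSpace X] [MulAction Γ X]
  [IsIsometricSMul Γ X] [TopologicalSpace B] [CompactSpace B] [T2Space B] [MulAction Γ B]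
  [ContinuousConstSMul Γ B]

namespace Leaf

variable (L : Leaf Γ X B)

/-- two frames of one leaf and one level: the stable holonomy of the flipped frame is the flipped
frame, up to rotation -/
theorem hol_flip {x y : X} (he : L.em x = L.em y) (hl : L.lv x = L.lv y) :
    ∃ a, L.hol (L.ep y) (L.flip x) = L.flip (L.rot a y) := by
  have hne : L.ep y ≠ L.ep (L.flip x) := by
    rw [L.ep_of_flip, he]
    exact (L.em_ne_ep y).symm
  set z := L.hol (L.ep y) (L.flip x) with hz
  have h1 : L.em z = L.em (L.flip y) := by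
    rw [hz, L.hol_em _ _ hne, ← L.ep_flip]
  have h2 : L.ep z = L.ep (L.flip y) := by
    rw [hz, L.hol_ep _ _ hne, L.ep_of_flip, L.ep_of_flip, he]
  have h3 : L.lv (L.flip z) = L.lv y := by
    rw [hz, L.hol_lp _ _ hne, L.flip_flip, hl]
  -- adjust the time
  set t := L.lv (L.flip y) - L.lv z with ht
  obtain ⟨a, ha⟩ := L.frame_unique (L.flip y) (L.φ t z) (by rw [L.em_φ, h1])
    (by rw [L.ep_φ, h2]) (by rw [L.lv_φ, ht]; ring)
  have h4 : L.lv (L.flip (L.φ t z)) = L.lv (L.flip z) - t := by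
    rw [L.flip_φ, L.lv_φ]; ring
  have h5 : L.lv (L.flip (L.φ t z)) = L.lv y := by
    rw [ha, L.flip_rot, L.lv_rot, L.flip_flip]
  have h6 : t = 0 := by linarith
  rw [h6, L.φ_zero] at ha
  exact ⟨a, by rw [ha, L.flip_rot]⟩

/-- (T4') two frames of one leaf and one level are close in the past, up to rotation -/
theorem past_close (C : ℝ) {ε : ℝ} (hε : 0 < ε) : ∃ c₀ : ℝ, ∀ x y : X, L.em x = L.em y →
    L.lv x = L.lv y → dist x y ≤ C → ∀ c ≥ c₀, ∃ a, dist (L.φ (-c) x) (L.φ (-c) (L.rot a y)) < ε := by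
  obtain ⟨δ, hδ, hunif⟩ := L.unif_cont L.flip_cont L.flip_smul hε
  obtain ⟨K, hK, hcov⟩ := L.cocompact
  -- compact set of pairs
  obtain ⟨R, hR⟩ := hK.isBounded.subset_closedBall (Classical.choice L.nonempty)
  let K2 : Set X := closedBall (Classical.choice L.nonempty) (R + C)
  have hK2 : IsCompact K2 := isCompact_closedBall _ _
  let P : Set (X × X) := {p | p.1 ∈ K ∧ p.2 ∈ K2 ∧ L.em p.1 = L.em p.2}
  have hP : IsCompact P := by
    have hc : IsClosed {p : X × X | L.em p.1 = L.em p.2} :=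
      isClosed_eq (L.em_cont.comp continuous_fst) (L.em_cont.comp continuous_snd)
    have : P = (K ×ˢ K2) ∩ {p : X × X | L.em p.1 = L.em p.2} := by
      ext p
      simp only [P, mem_ofPred_eq, mem_inter_iff, mem_prod, and_assoc]
    rw [this]
    exact (hK.prod hK2).inter_right hc
  let Q : Set (B × X) := (fun p : X × X => (L.ep p.2, L.flip p.1)) '' P
  have hQ : IsCompact Q := hP.image
    ((L.ep_cont.comp continuous_snd).prodMk (L.flip_cont.comp continuous_fst))
  have hQne : ∀ p ∈ Q, p.1 ≠ L.ep p.2 := by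
    rintro _ ⟨⟨x, y⟩, ⟨_, _, he⟩, rfl⟩
    simp only at he ⊢
    rw [L.ep_of_flip, he]
    exact (L.em_ne_ep y).symm
  obtain ⟨C', hC'⟩ := L.hol_asym Q hQ hQne
  -- time such that C' exp(- chi t) < delta
  have hlim : Tendsto (fun t : ℝ => C' * Real.exp (-L.χ * t)) atTop (𝓝 0) := by
    have h1 : Tendsto (fun t : ℝ => Real.exp (-(L.χ * t))) atTop (𝓝 0) :=
      Real.tendsto_exp_neg_atTop_nhds_zero.comp (Tendsto.const_mul_atTop L.χ_pos tendsto_id)
    have h2 := h1.const_mul C'
    rw [mul_zero] at h2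
    refine h2.congr fun t => ?_
    rw [neg_mul]
  obtain ⟨c₀, hc₀⟩ := eventually_atTop.mp ((tendsto_order.mp hlim).2 δ hδ)
  refine ⟨max c₀ 0, fun x y he hl hd c hc => ?_⟩
  obtain ⟨g, hg⟩ := hcov x
  have hgx : (g • x, g • y) ∈ P := by
    refine ⟨hg, ?_, by simp only [L.em_smul, he]⟩
    have h1 : dist (g • x) (g • y) ≤ C := by rw [dist_smul]; exact hd
    have h2 : dist (g • x) (Classical.choice L.nonempty) ≤ R := hR hg
    show dist (g • y) _ ≤ R + C
    calc dist (g • y) (Classical.choice L.nonempty)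
        ≤ dist (g • y) (g • x) + dist (g • x) (Classical.choice L.nonempty) := dist_triangle _ _ _
      _ ≤ R + C := by rw [dist_comm]; linarith
  have hmem : (L.ep (g • y), L.flip (g • x)) ∈ Q := ⟨_, hgx, rfl⟩
  have h1 := hC' _ hmem c ((le_max_right _ _).trans hc)
  have h2 := hc₀ c ((le_max_left _ _).trans hc)
  -- remove g
  have hlg : L.lv (g • x) = L.lv (g • y) := by
    have := L.lv_smul g x y he
    linarith
  obtain ⟨a, ha⟩ := L.hol_flip (x := g • x) (y := g • y) (by simp only [L.em_smul, he]) hlg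
  simp only at h1
  rw [ha] at h1
  have h3 : dist (L.φ c (L.flip (g • x))) (L.φ c (L.flip (L.rot a (g • y)))) < δ :=
    lt_of_le_of_lt h1 h2
  have h4 := hunif _ _ h3
  rw [L.flip_φ, L.flip_flip, L.flip_φ, L.flip_flip, L.rot_smul, L.φ_smul, L.φ_smul,
    dist_smul] at h4
  exact ⟨a, h4⟩

/-- (T4) engulfing: the past disc of a frame contains the end points of the frames of the same
leaf and level at bounded distance -/
theorem past_engulf (C : ℝ) : ∃ c₀ : ℝ, ∀ x y : X, L.em x = L.em y → L.lv x = L.lv y →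
    dist x y ≤ C → ∀ c ≥ c₀, L.ep y ∈ L.e (L.φ (-c) x) '' ball 0 1 := by
  obtain ⟨δ, hδ, hnc⟩ := L.near_charts (ε := 1) one_pos
  obtain ⟨c₀, hc₀⟩ := L.past_close C hδ
  refine ⟨c₀, fun x y he hl hd c hc => ?_⟩
  obtain ⟨a, ha⟩ := hc₀ x y he hl hd c hc
  rw [dist_comm] at ha
  obtain ⟨h1, h2⟩ := hnc _ _ ha 0 (by simp)
  have h3 : L.e (L.φ (-c) (L.rot a y)) 0 = L.ep y := by
    rw [L.e_zero, L.ep_φ, L.ep_rot]
  rw [h3] at h1 h2
  refine ⟨L.inv (L.φ (-c) x) (L.ep y), ?_, L.e_inv (image_mono ball_subset_closedBall h1)⟩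
  rw [mem_ball]
  exact h2

/-- frames of the leaf of xi at level zero with end point in a compact set -/
def lev0 (ξ : B) (K : Set B) : Set X := {x | L.em x = ξ ∧ L.ep x ∈ K ∧ L.lv x = 0}

theorem lev0_compact {ξ : B} {K : Set B} (hK : IsCompact K) (hξ : ξ ∉ K) :
    IsCompact (L.lev0 ξ K) := by
  have h1 := L.hopf_proper ({ξ} ×ˢ K) (isCompact_singleton.prod hK) (by
    rintro ⟨a, b⟩ ⟨ha, hb⟩
    rw [mem_singleton_iff] at ha
    simp only at ha hb ⊢
    rw [ha]
    rintro rfl
    exact hξ hb) 0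
  have h2 : L.lev0 ξ K = {x | (L.em x, L.ep x) ∈ ({ξ} : Set B) ×ˢ K ∧ |L.lv x| ≤ 0} := by
    ext x
    simp only [lev0, mem_ofPred_eq, mem_prod, mem_singleton_iff, abs_nonpos_iff, and_assoc]
  rw [h2]
  exact h1

theorem exists_lev0 {ξ : B} {K : Set B} (hξ : ξ ∉ K) {η : B} (hη : η ∈ K) :
    ∃ x ∈ L.lev0 ξ K, L.ep x = η := by
  obtain ⟨x, h1, h2, h3⟩ := L.exists_frame ξ η (by rintro rfl; exact hξ hη) 0
  exact ⟨x, ⟨h1, by rw [h2]; exact hη, h3⟩, h2⟩

end Leaf

/-! ### packing -/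

namespace Leaf

variable [MeasurableSpace B] [BorelSpace B] {L : Leaf Γ X B} (A : Area L)

/-- the Margulis area of the leaf of xi -/
noncomputable def sig (ξ : B) (S : Set B) : ENNReal :=
  ∫⁻ η in S, ENNReal.ofReal (Real.exp (-A.h * A.D ξ η)) ∂A.ν

include A in
theorem s_lower : ∃ m > 0, ∀ x : X, ∀ u ∈ closedBall (0 : E2) 1, m ≤ A.s x u := by
  obtain ⟨K, hK, hcov⟩ := L.cocompact
  have hc : ContinuousOn (fun p : X × E2 => A.s p.1 p.2) (K ×ˢ closedBall 0 1) := by
    have h1 := A.s_cont 0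
    have h2 : ContinuousOn (fun p : X × E2 => A.s p.1 p.2) (univ ×ˢ ball 0 3) := by
      have h3 : ContinuousOn (fun p : X × E2 =>
          (iteratedFDeriv ℝ 0 (A.s p.1) p.2) (0 : Fin 0 → E2)) (univ ×ˢ ball 0 3) := by
        intro p hp
        exact ((h1 p hp).eval_const _)
      refine h3.congr fun p _ => ?_
      simp only [iteratedFDeriv_zero_apply]
    exact h2.mono (prod_mono (subset_univ _) (closedBall_subset_ball (by norm_num)))
  have hKc : IsCompact (K ×ˢ closedBall (0 : E2) 1) := hK.prod (isCompact_closedBall 0 1)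
  obtain ⟨x0⟩ := L.nonempty
  obtain ⟨g0, hg0⟩ := hcov x0
  have hne : (K ×ˢ closedBall (0 : E2) 1).Nonempty := ⟨(g0 • x0, 0), hg0, by simp⟩
  obtain ⟨p, hp, hmin⟩ := hKc.exists_isMinOn hne hc
  refine ⟨A.s p.1 p.2, A.s_pos _ _ (closedBall_subset_ball (by norm_num) hp.2), fun x u hu => ?_⟩
  obtain ⟨g, hg⟩ := hcov x
  rw [← A.s_smul g x u (closedBall_subset_ball (by norm_num) hu)]
  exact hmin (show (g • x, u) ∈ K ×ˢ closedBall (0 : E2) 1 from ⟨hg, hu⟩)

/-- lower bound for the area of a unit disc -/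
theorem sig_lower : ∃ c > 0, ∀ x : X,
    ENNReal.ofReal (c * Real.exp (-A.h * L.lv x)) ≤ sig A (L.em x) (L.e x '' closedBall 0 1) := by
  obtain ⟨m, hm, hs⟩ := s_lower A
  let v : ENNReal := volume (closedBall (0 : E2) 1)
  have hv0 : v ≠ 0 := (measure_closedBall_pos volume (0 : E2) one_pos).ne'
  have hvt : v ≠ ⊤ := (isCompact_closedBall (0 : E2) 1).measure_lt_top.ne
  refine ⟨m * v.toReal, mul_pos hm (ENNReal.toReal_pos hv0 hvt), fun x => ?_⟩
  unfold sig
  rw [← A.ν_chart x (closedBall 0 1) measurableSet_closedBall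
    (closedBall_subset_ball (by norm_num))]
  have h1 : ∫⁻ _u in closedBall (0 : E2) 1, ENNReal.ofReal (Real.exp (-A.h * L.lv x) * m) ≤
      ∫⁻ u in closedBall (0 : E2) 1, ENNReal.ofReal (Real.exp (-A.h * L.lv x) * A.s x u) := by
    refine setLIntegral_mono' measurableSet_closedBall fun u hu => ?_
    apply ENNReal.ofReal_le_ofReal
    have := hs x u hu
    gcongr
  refine le_trans (le_of_eq ?_) h1
  rw [setLIntegral_const, show m * v.toReal * Real.exp (-A.h * L.lv x)
    = (Real.exp (-A.h * L.lv x) * m) * v.toReal by ring,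
    ENNReal.ofReal_mul (by positivity), ENNReal.ofReal_toReal hvt]

/-- the area of a compact set of the leaf is finite -/
theorem sig_finite {ξ : B} {K : Set B} (hK : IsCompact K) (hξ : ξ ∉ K) : sig A ξ K < ⊤ := by
  obtain ⟨M, hM⟩ : ∃ M : ℝ, ∀ η ∈ K, -M ≤ A.D ξ η := by
    have hc := L.lev0_compact hK hξ
    have hcont : Continuous (fun x : X => L.lv x + L.lp x) :=
      L.lv_cont.add (L.lv_cont.comp L.flip_cont)
    obtain ⟨M, hM⟩ := (hc.bddBelow_image hcont.continuousOn)
    refine ⟨-M, fun η hη => ?_⟩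
    obtain ⟨x, hx, hxe⟩ := L.exists_lev0 hξ hη
    have h1 : M ≤ L.lv x + L.lp x := hM ⟨x, hx, rfl⟩
    rw [← A.D_eq x, hx.1, hxe] at h1
    linarith
  have := A.ν_finite
  have h1 : sig A ξ K ≤ ∫⁻ _η in K, ENNReal.ofReal (Real.exp (A.h * M)) ∂A.ν := by
    refine setLIntegral_mono' hK.measurableSet fun η hη => ?_
    apply ENNReal.ofReal_le_ofReal
    apply Real.exp_le_exp.mpr
    have h2 := hM η hη
    have h3 := A.h_pos
    nlinarith
  refine lt_of_le_of_lt h1 ?_
  rw [setLIntegral_const]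
  exact ENNReal.mul_lt_top ENNReal.ofReal_lt_top (measure_lt_top _ _)

theorem disc_compact (x : X) {r : ℝ} (hr : r ≤ 3) : IsCompact (L.e x '' closedBall 0 r) :=
  (isCompact_closedBall (0 : E2) r).image_of_continuousOn
    ((L.e_cont_x x).mono (closedBall_subset_closedBall hr))

/-- (T5) PACKING: a compact set K of the leaf of xi is covered by at most C exp(hT) unit discs
at time T, centered at frames over K of level T -/
theorem packing {ξ : B} {K : Set B} (hK : IsCompact K) (hξ : ξ ∉ K) :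
    ∃ C > 0, ∀ T ≥ (0 : ℝ), ∃ I : Finset X, (I.card : ℝ) ≤ C * Real.exp (A.h * T) ∧
      (∀ x ∈ I, x ∈ L.lev0 ξ K) ∧ K ⊆ ⋃ x ∈ I, L.e (L.φ T x) '' closedBall 0 1 := by
  obtain ⟨C₁, hC₁⟩ := L.near 0
  obtain ⟨c₀, hc₀⟩ := L.past_engulf C₁
  obtain ⟨c, hc, hlow⟩ := sig_lower A
  -- the constant shift
  set c₁ := max c₀ L.t1 with hc₁
  have hc₁0 : 0 < c₁ := lt_of_lt_of_le L.t1_pos (le_max_right _ _)
  -- the compact set containing all discs
  let K' : Set B := (fun p : X × E2 => L.e p.1 p.2) '' (L.lev0 ξ K ×ˢ closedBall 0 1)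
  have hK' : IsCompact K' := ((L.lev0_compact hK hξ).prod (isCompact_closedBall 0 1)).image_of_continuousOn
    (L.e_cont.mono (prod_mono (subset_univ _) (closedBall_subset_closedBall (by norm_num))))
  have hξ' : ξ ∉ K' := by
    rintro ⟨⟨x, u⟩, ⟨hx, hu⟩, h⟩
    exact L.e_ne x u (closedBall_subset_closedBall (by norm_num) hu) (h.trans hx.1.symm)
  have hfin := sig_finite A hK' hξ'
  set S := (sig A ξ K').toReal with hS
  refine ⟨S / c * Real.exp (A.h * c₁) + 1, by positivity, fun T hT => ?_⟩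
  let D : X → Set B := fun x => L.e (L.φ (T + c₁) x) '' closedBall 0 1
  have hDsub : ∀ x ∈ L.lev0 ξ K, D x ⊆ K' := by
    intro x hx
    have h1 := L.engulf x (T + c₁) (by
      have : L.t1 ≤ c₁ := le_max_right _ _
      linarith)
    rintro _ ⟨u, hu, rfl⟩
    obtain ⟨v, hv, hv'⟩ := h1 ⟨u, closedBall_subset_closedBall (by norm_num) hu, rfl⟩
    exact ⟨(x, v), ⟨hx, ball_subset_closedBall hv⟩, hv'⟩
  -- bound for disjoint families
  have hbound : ∀ I : Finset X, (∀ x ∈ I, x ∈ L.lev0 ξ K) →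
      (I : Set X).PairwiseDisjoint D → (I.card : ℝ) ≤ S / c * Real.exp (A.h * (T + c₁)) := by
    intro I hI hdis
    have hmeas : ∀ x ∈ I, MeasurableSet (D x) := fun x _ =>
      (disc_compact _ (by norm_num)).measurableSet
    have h1 : ∑ x ∈ I, sig A ξ (D x) ≤ sig A ξ K' := by
      unfold sig
      rw [← lintegral_biUnion_finset hdis hmeas]
      exact lintegral_mono_set (iUnion₂_subset fun x hx => hDsub x (hI x hx))
    have h2 : ∑ _x ∈ I, ENNReal.ofReal (c * Real.exp (-A.h * (T + c₁))) ≤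
        ∑ x ∈ I, sig A ξ (D x) := by
      refine Finset.sum_le_sum fun x hx => ?_
      have h3 := hlow (L.φ (T + c₁) x)
      rw [L.em_φ, (hI x hx).1, L.lv_φ, (hI x hx).2.2, zero_add] at h3
      exact h3
    have h3 := h2.trans h1
    rw [Finset.sum_const, nsmul_eq_mul, ← ENNReal.ofReal_natCast,
      ← ENNReal.ofReal_mul (by positivity), ← ENNReal.ofReal_toReal hfin.ne,
      ENNReal.ofReal_le_ofReal_iff ENNReal.toReal_nonneg] at h3
    have h4 : (I.card : ℝ) * c ≤ S * Real.exp (A.h * (T + c₁)) := by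
      have e : Real.exp (-A.h * (T + c₁)) * Real.exp (A.h * (T + c₁)) = 1 := by
        rw [← Real.exp_add]
        simp
      calc (I.card : ℝ) * c = (I.card : ℝ) * (c * Real.exp (-A.h * (T + c₁))) *
            Real.exp (A.h * (T + c₁)) := by
              rw [mul_assoc, mul_assoc c, e, mul_one]
        _ ≤ S * Real.exp (A.h * (T + c₁)) := by gcongr
    rw [div_mul_eq_mul_div, le_div_iff₀ hc]
    exact h4
  -- choose a family of maximal cardinality
  obtain ⟨N, hN⟩ := exists_nat_ge (S / c * Real.exp (A.h * (T + c₁)))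
  let P : ℕ → Prop := fun n => ∃ I : Finset X, I.card = n ∧ (∀ x ∈ I, x ∈ L.lev0 ξ K) ∧
    (I : Set X).PairwiseDisjoint D
  have hP0 : P 0 := ⟨∅, rfl, by simp, by simp⟩
  classical
  obtain ⟨I, hcard, hI, hdis⟩ : P (Nat.findGreatest P N) := Nat.findGreatest_spec (Nat.zero_le N) hP0
  have hmax : ∀ J : Finset X, (∀ x ∈ J, x ∈ L.lev0 ξ K) → (J : Set X).PairwiseDisjoint D →
      J.card ≤ I.card := by
    intro J hJ hJd
    rw [hcard]
    refine Nat.le_findGreatest ?_ ⟨J, rfl, hJ, hJd⟩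
    exact_mod_cast (hbound J hJ hJd).trans hN
  refine ⟨I, ?_, hI, ?_⟩
  · refine (hbound I hI hdis).trans ?_
    rw [mul_add, Real.exp_add]
    have : 0 ≤ Real.exp (A.h * T) := (Real.exp_pos _).le
    nlinarith
  · intro η hη
    obtain ⟨y, hy, hyη⟩ := L.exists_lev0 hξ hη
    by_cases hyI : y ∈ I
    · refine mem_iUnion₂.mpr ⟨y, hyI, 0, by simp, ?_⟩
      rw [L.e_zero, L.ep_φ, hyη]
    · -- insertion destroys disjointness
      have hins : ¬ (insert y I : Finset X).card ≤ I.card := by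
        rw [Finset.card_insert_of_notMem hyI]
        omega
      have hnd : ¬ ((insert y I : Finset X) : Set X).PairwiseDisjoint D := by
        intro hd
        refine hins (hmax _ ?_ hd)
        intro x hx
        rcases Finset.mem_insert.mp hx with h | h
        · rw [h]; exact hy
        · exact hI x h
      rw [Finset.coe_insert, pairwiseDisjoint_insert] at hnd
      push Not at hnd
      obtain ⟨x, hx, hxy, hndis⟩ := hnd hdis
      rw [not_disjoint_iff_nonempty_inter] at hndis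
      have hxI : x ∈ L.lev0 ξ K := hI x hx
      have hd : dist (L.φ (T + c₁) x) (L.φ (T + c₁) y) ≤ C₁ := by
        apply hC₁
        · rw [L.em_φ, L.em_φ, hxI.1, hy.1]
        · rw [L.lv_φ, L.lv_φ, hxI.2.2, hy.2.2]; simp
        · rw [inter_comm] at hndis
          exact hndis.mono (inter_subset_inter
            (image_mono (closedBall_subset_closedBall (by norm_num)))
            (image_mono (closedBall_subset_closedBall (by norm_num))))
      have h1 := hc₀ (L.φ (T + c₁) x) (L.φ (T + c₁) y) (by rw [L.em_φ, L.em_φ, hxI.1, hy.1])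
        (by rw [L.lv_φ, L.lv_φ, hxI.2.2, hy.2.2]) hd c₁ (le_max_left _ _)
      rw [L.ep_φ, hyη, ← L.φ_add] at h1
      have e : -c₁ + (T + c₁) = T := by ring
      rw [e] at h1
      exact mem_iUnion₂.mpr ⟨x, hx, image_mono ball_subset_closedBall h1⟩

end Leaf

end Vale.Agent.P207.N4
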